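import Crest.Agent.R9.Der
import Crest.Prelude.Def_MilnorK

/-!
# Logarithmic derivatives on `Kˣ/(Kˣ)^p` and `p`-dependence

`Par A B` says that the logarithmic differentials of two classes are proportional. A map that is
compatible with the Steinberg relations preserves `Par` (`par_map`).
-/

set_option autoImplicit false
set_option linter.unusedSectionVars false

namespace Crest.Agent.R9

open Crest.NumberTheoryR.MilnorK

/-- shortcut instance -/
instance (priority := high) instKOne (K : Type*) [Field K] (p : ℕ) : AddCommGroup (KOne K p) :=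
  QuotientAddGroup.Quotient.addCommGroup _

variable {K : Type*} [Field K] {p : ℕ} [Fact p.Prime] [CharP K p]

open Classical in
variable (p) in
/-- the class of a field element (zero at zero) -/
noncomputable def cl (x : K) : KOne K p := if h : x = 0 then 0 else cls K p (Units.mk0 x h)

lemma cl_of_ne {x : K} (h : x ≠ 0) : cl p x = cls K p (Units.mk0 x h) := by
  simp [cl, h]

lemma cls_eq_cl (u : Kˣ) : cls K p u = cl p (u : K) := by
  rw [cl_of_ne u.ne_zero]; simp

lemma cls_mul (u v : Kˣ) : cls K p (u * v) = cls K p u + cls K p v := rfl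

lemma cl_mul {x y : K} (hx : x ≠ 0) (hy : y ≠ 0) : cl p (x * y) = cl p x + cl p y := by
  rw [cl_of_ne hx, cl_of_ne hy, cl_of_ne (mul_ne_zero hx hy), ← cls_mul]
  congr 1
  ext; simp

lemma cl_surj (A : KOne K p) : ∃ x : K, x ≠ 0 ∧ cl p x = A := by
  induction A using QuotientAddGroup.induction_on with
  | H u => exact ⟨(Additive.toMul u : Kˣ), Units.ne_zero _, by rw [← cls_eq_cl]; rfl⟩

lemma cl_eq_zero_iff {x : K} (hx : x ≠ 0) : cl p x = 0 ↔ x ∈ PP K p := by
  have hp : p.Prime := Fact.out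
  rw [cl_of_ne hx, cls, QuotientAddGroup.eq_zero_iff, mem_PP]
  constructor
  · rintro ⟨u, hu⟩
    refine ⟨(Additive.toMul u : Kˣ), ?_⟩
    have := congrArg (fun t : Additive Kˣ => ((Additive.toMul t : Kˣ) : K)) hu
    simpa using this
  · rintro ⟨y, hy⟩
    have hy0 : y ≠ 0 := by
      rintro rfl
      rw [zero_pow hp.ne_zero] at hy
      exact hx hy.symm
    refine ⟨Additive.ofMul (Units.mk0 y hy0), ?_⟩
    apply Additive.toMul.injective
    ext
    simpa using hy

lemma cl_one : cl p (1 : K) = 0 := (cl_eq_zero_iff one_ne_zero).2 (one_mem _)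

lemma cl_inv {x : K} (hx : x ≠ 0) : cl p x⁻¹ = - cl p x := by
  rw [eq_neg_iff_add_eq_zero, ← cl_mul (inv_ne_zero hx) hx, inv_mul_cancel₀ hx, cl_one]

lemma cl_div {x y : K} (hx : x ≠ 0) (hy : y ≠ 0) : cl p (x / y) = cl p x - cl p y := by
  rw [div_eq_mul_inv, cl_mul hx (inv_ne_zero hy), cl_inv hy, sub_eq_add_neg]

lemma cl_pow {x : K} (hx : x ≠ 0) (n : ℕ) : cl p (x ^ n) = n • cl p x := by
  induction n with
  | zero => simp [cl_one]
  | succ n ih => rw [pow_succ, cl_mul (pow_ne_zero _ hx) hx, ih, succ_nsmul]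

lemma cl_eq_iff {x y : K} (hx : x ≠ 0) (hy : y ≠ 0) : cl p x = cl p y ↔ x / y ∈ PP K p := by
  rw [← cl_eq_zero_iff (div_ne_zero hx hy), cl_div hx hy, sub_eq_zero]

lemma cl_PP_mul {a x : K} (ha : a ∈ PP K p) (ha0 : a ≠ 0) (hx : x ≠ 0) :
    cl p (a * x) = cl p x := by
  rw [cl_mul ha0 hx, (cl_eq_zero_iff ha0).2 ha, zero_add]

lemma cl_neg {x : K} (hx : x ≠ 0) : cl p (-x) = cl p x := by
  rw [← neg_one_mul, cl_PP_mul (neg_mem (one_mem _)) (by simp) hx]

lemma ne_zero_of_not_mem {x : K} (hx : x ∉ PP K p) : x ≠ 0 := by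
  rintro rfl; exact hx (zero_mem _)

lemma cl_ne_zero {x : K} (hx : x ∉ PP K p) : cl p x ≠ 0 := fun h =>
  hx ((cl_eq_zero_iff (ne_zero_of_not_mem hx)).1 h)

variable (p) in
/-- the logarithmic derivative -/
noncomputable def dl (D : Der K) : KOne K p →+ K :=
  QuotientAddGroup.lift (pMultiples K p)
    (AddMonoidHom.mk' (fun u : Additive Kˣ => D (Additive.toMul u : Kˣ) / (Additive.toMul u : Kˣ))
      (by
        intro u v
        have hu := (Additive.toMul u).ne_zero
        have hv := (Additive.toMul v).ne_zero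
        simp only [toMul_add, Units.val_mul, Derivation.leibniz, smul_eq_mul]
        field_simp
        ring))
    (by
      rintro _ ⟨u, rfl⟩
      simp)

lemma dl_cl (D : Der K) (x : K) : dl p D (cl p x) = D x / x := by
  by_cases hx : x = 0
  · simp [hx, cl]
  · rw [cl_of_ne hx]; rfl

lemma eq_zero_of_dl {A : KOne K p} (h : ∀ D : Der K, dl p D A = 0) : A = 0 := by
  obtain ⟨x, hx, rfl⟩ := cl_surj A
  rw [cl_eq_zero_iff hx, mem_PP_iff]
  intro D
  have := h D
  rw [dl_cl] at this
  exact (div_eq_zero_iff.1 this).resolve_right hx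

lemma exists_dl_ne {A : KOne K p} (h : A ≠ 0) : ∃ D : Der K, dl p D A ≠ 0 := by
  by_contra hc
  push Not at hc
  exact h (eq_zero_of_dl hc)

lemma eq_of_dl {A B : KOne K p} (h : ∀ D : Der K, dl p D A = dl p D B) : A = B := by
  rw [← sub_eq_zero]
  apply eq_zero_of_dl
  intro D
  rw [map_sub, h, sub_self]

lemma zsmul_eq (c : ZMod p) (A : KOne K p) : c • A = c.val • A := by
  have hp : p.Prime := Fact.out
  have : NeZero p := ⟨hp.ne_zero⟩
  conv_lhs => rw [← ZMod.natCast_zmod_val c]
  rw [Nat.cast_smul_eq_nsmul]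

lemma dl_smul (D : Der K) (c : ZMod p) (A : KOne K p) :
    dl p D (c • A) = ZMod.castHom (dvd_refl p) K c * dl p D A := by
  have hp : p.Prime := Fact.out
  have : NeZero p := ⟨hp.ne_zero⟩
  rw [zsmul_eq, map_nsmul, nsmul_eq_mul, ZMod.castHom_apply, ZMod.natCast_val]

/-- proportional logarithmic differentials -/
def Par (A B : KOne K p) : Prop :=
  ∀ D D' : Der K, dl p D A * dl p D' B = dl p D' A * dl p D B

lemma Par.symm {A B : KOne K p} (h : Par A B) : Par B A := fun D D' => by
  rw [mul_comm, ← h D D', mul_comm]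

lemma Par.refl (A : KOne K p) : Par A A := fun _ _ => mul_comm _ _

lemma par_zero_right (A : KOne K p) : Par A 0 := fun _ _ => by simp

lemma Par.add_right {A B C : KOne K p} (h : Par A B) (h' : Par A C) : Par A (B + C) :=
  fun D D' => by rw [map_add, map_add, mul_add, mul_add, h D D', h' D D']

lemma Par.neg_right {A B : KOne K p} (h : Par A B) : Par A (-B) :=
  fun D D' => by rw [map_neg, map_neg, mul_neg, mul_neg, h D D']

lemma Par.trans {A B C : KOne K p} (h : Par A B) (h' : Par B C) (hB : B ≠ 0) : Par A C := by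
  obtain ⟨D0, h0⟩ := exists_dl_ne hB
  intro D D'
  apply mul_left_cancel₀ (mul_ne_zero h0 h0)
  have e1 := h D D0
  have e2 := h D' D0
  have e3 := h' D D0
  have e4 := h' D' D0
  calc dl p D0 B * dl p D0 B * (dl p D A * dl p D' C)
      = (dl p D A * dl p D0 B) * (dl p D0 B * dl p D' C) := by ring
    _ = (dl p D' A * dl p D0 B) * (dl p D0 B * dl p D C) := by
        rw [e1, e2, ← e3, ← e4]; ring
    _ = _ := by ring

lemma par_of_mem_Cen {x y : K} (h : y ∈ Cen x) : Par (cl p x) (cl p y) := by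
  intro D D'
  simp only [dl_cl]
  rw [div_mul_div_comm, div_mul_div_comm, cross_of_mem_Cen h D D']

lemma mem_Cen_of_par {x y : K} (hx : x ∉ PP K p) (hy : y ≠ 0) (h : Par (cl p x) (cl p y)) :
    y ∈ Cen x := by
  rw [mem_Cen]
  intro D hD
  obtain ⟨D0, h0⟩ := exists_dl_ne (cl_ne_zero hx)
  have := h D D0
  rw [dl_cl D x, hD, zero_div, zero_mul, eq_comm, mul_eq_zero, dl_cl D y] at this
  exact (div_eq_zero_iff.1 (this.resolve_left h0)).resolve_right hy

lemma par_steinberg (f : K) : Par (cl p f) (cl p (1 - f)) :=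
  par_of_mem_Cen (sub_mem (one_mem _) (self_mem_Cen f))

theorem par_of_mem_steinberg {A B : KOne K p}
    (h : TensorProduct.tmul (ZMod p) A B ∈ steinberg K p) : Par A B := by
  intro D D'
  let : Algebra (ZMod p) K := ZMod.algebra K p
  let φ : TensorProduct (ZMod p) (KOne K p) (KOne K p) →ₗ[ZMod p] K :=
    (LinearMap.mul' (ZMod p) K).comp
        (TensorProduct.map ((dl p D).toZModLinearMap p) ((dl p D').toZModLinearMap p)) -
      (LinearMap.mul' (ZMod p) K).comp
        (TensorProduct.map ((dl p D').toZModLinearMap p) ((dl p D).toZModLinearMap p))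
  have hφ : ∀ A B : KOne K p, φ (TensorProduct.tmul (ZMod p) A B)
      = dl p D A * dl p D' B - dl p D' A * dl p D B := by
    intro A B
    simp [φ]
  have hle : steinberg K p ≤ LinearMap.ker φ := by
    rw [steinberg, Submodule.span_le]
    rintro _ ⟨f, hf, hf1, rfl⟩
    rw [SetLike.mem_coe, LinearMap.mem_ker, hφ, ← cl_of_ne, ← cl_of_ne, par_steinberg f D D',
      sub_self]
  have := hle h
  rwa [LinearMap.mem_ker, hφ, sub_eq_zero] at this

variable {L : Type*} [Field L] [CharP L p]

theorem par_map (Θ : KOne K p →+ KOne L p) (hinj : Function.Injective Θ)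
    (hst : ∀ f : K, f ≠ 0 → 1 - f ≠ 0 → Par (Θ (cl p f)) (Θ (cl p (1 - f))))
    {A B : KOne K p} (h : Par A B) : Par (Θ A) (Θ B) := by
  by_cases hA : A = 0
  · rw [hA, map_zero]; exact (par_zero_right _).symm
  obtain ⟨f, hf0, rfl⟩ := cl_surj A
  obtain ⟨g, hg0, rfl⟩ := cl_surj B
  have hf : f ∉ PP K p := fun h => hA ((cl_eq_zero_iff hf0).2 h)
  let S : Set K := {z | z = 0 ∨ (z ≠ 0 ∧ Par (Θ (cl p f)) (Θ (cl p z)))}
  have hPP : ∀ z ∈ PP K p, z ∈ S := by
    intro z hz
    by_cases h0 : z = 0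
    · exact Or.inl h0
    · refine Or.inr ⟨h0, ?_⟩
      rw [(cl_eq_zero_iff h0).2 hz, map_zero]
      exact par_zero_right _
  have hmul : ∀ a ∈ S, ∀ b ∈ S, a * b ∈ S := by
    rintro a (rfl | ⟨ha0, ha⟩) b (rfl | ⟨hb0, hb⟩)
    · left; simp
    · left; simp
    · left; simp
    · right
      refine ⟨mul_ne_zero ha0 hb0, ?_⟩
      rw [cl_mul ha0 hb0, map_add]
      exact ha.add_right hb
  have hinv : ∀ a ∈ S, a⁻¹ ∈ S := by
    rintro a (rfl | ⟨ha0, ha⟩)
    · left; simp
    · right
      refine ⟨inv_ne_zero ha0, ?_⟩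
      rw [cl_inv ha0, map_neg]
      exact ha.neg_right
  have hsub : ∀ a ∈ S, 1 - a ∈ S := by
    intro a ha
    by_cases hPa : a ∈ PP K p
    · exact hPP _ (sub_mem (one_mem _) hPa)
    have ha0 := ne_zero_of_not_mem hPa
    have ha1 : 1 - a ≠ 0 := by
      intro h1
      apply hPa
      rw [← sub_eq_zero.1 h1]; exact one_mem _
    refine Or.inr ⟨ha1, ?_⟩
    refine Par.trans (ha.resolve_left ha0).2 (hst a ha0 ha1) ?_
    rw [Ne, map_eq_zero_iff Θ hinj]
    exact cl_ne_zero hPa
  have hneg : ∀ a ∈ S, -a ∈ S := by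
    intro a ha
    rw [← neg_one_mul]
    exact hmul _ (hPP _ (neg_mem (one_mem _))) _ ha
  let M : Subfield K :=
    { carrier := S
      mul_mem' := fun {a b} ha hb => hmul a ha b hb
      one_mem' := hPP _ (one_mem _)
      add_mem' := by
        intro a b ha hb
        by_cases ha0 : a = 0
        · rw [ha0, zero_add]; exact hb
        have : a + b = a * (1 - (-(b * a⁻¹))) := by field_simp; ring
        rw [this]
        exact hmul _ ha _ (hsub _ (hneg _ (hmul _ hb _ (hinv _ ha))))
      zero_mem' := Or.inl rfl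
      neg_mem' := fun {a} ha => hneg a ha
      inv_mem' := fun a ha => hinv a ha }
  have hle : Cen f ≤ M := Cen_le M (fun z => hPP _ (pow_mem_PP z)) (Or.inr ⟨hf0, Par.refl _⟩)
  exact ((hle (mem_Cen_of_par hf hg0 h)).resolve_left hg0).2

theorem par_iff_of_isCompatible (Θ : KOne K p ≃ₗ[ZMod p] KOne L p) (hΘ : IsCompatible Θ)
    (A B : KOne K p) : Par (Θ A) (Θ B) ↔ Par A B := by
  constructor
  · intro h
    have := par_map Θ.symm.toLinearMap.toAddMonoidHom Θ.symm.injective (by
      intro f hf hf1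
      apply par_of_mem_steinberg
      have h1 : TensorProduct.tmul (ZMod p) (cl p f) (cl p (1 - f)) ∈ steinberg L p :=
        Submodule.subset_span ⟨f, hf, hf1, by rw [cl_of_ne hf, cl_of_ne hf1]⟩
      rw [← hΘ] at h1
      obtain ⟨s, hs, hs'⟩ := h1
      have h2 := congrArg (TensorProduct.map Θ.symm.toLinearMap Θ.symm.toLinearMap) hs'
      rw [← LinearMap.comp_apply, ← TensorProduct.map_comp] at h2
      simp only [LinearEquiv.comp_coe, LinearEquiv.self_trans_symm, LinearEquiv.refl_toLinearMap,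
        TensorProduct.map_id, LinearMap.id_coe, id_eq, TensorProduct.map_tmul,
        LinearEquiv.coe_coe] at h2
      rw [h2] at hs
      exact hs) h
    simpa using this
  · intro h
    refine par_map Θ.toLinearMap.toAddMonoidHom Θ.injective ?_ h
    intro f hf hf1
    apply par_of_mem_steinberg
    rw [← hΘ]
    exact ⟨TensorProduct.tmul (ZMod p) (cl p f) (cl p (1 - f)),
      Submodule.subset_span ⟨f, hf, hf1, by rw [cl_of_ne hf, cl_of_ne hf1]⟩, by simp⟩

end Crest.Agent.R9
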