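import Crest.Agent.R9.Cls

/-!
# The configuration lemma

If `Θ` preserves `p`-dependence then for one non-zero scalar `e`, and every `u ∉ K^p`,
`e Θ[u] = [u']` and `e Θ[1 + u] = [1 + u']` for some `u'`.
-/

set_option autoImplicit false
set_option linter.unusedSectionVars false

namespace Crest.Agent.R9

open Crest.NumberTheoryR.MilnorK

variable {K : Type*} [Field K] {p : ℕ} [Fact p.Prime] [CharP K p]

/-- `e A = [u]` and `e B = [1 + u]` for some `u` -/
def Gd (e : ZMod p) (A B : KOne K p) : Prop :=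
  ∃ u : K, u ≠ 0 ∧ 1 + u ≠ 0 ∧ cl p u = e • A ∧ cl p (1 + u) = e • B

lemma cast_ne_zero {e : ZMod p} (he : e ≠ 0) : ZMod.castHom (dvd_refl p) K e ≠ 0 :=
  (map_ne_zero _).2 he

lemma rep_unique {e e' : ZMod p} (he : e ≠ 0) (he' : e' ≠ 0) {A B : KOne K p} (hA : A ≠ 0)
    {u u' : K} (hu : u ≠ 0) (hu1 : 1 + u ≠ 0) (hu' : u' ≠ 0) (hu1' : 1 + u' ≠ 0)
    (h1 : cl p u = e • A) (h2 : cl p (1 + u) = e • B)
    (h1' : cl p u' = e' • A) (h2' : cl p (1 + u') = e' • B) : u = u' ∧ e = e' := by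
  obtain ⟨D, hD⟩ := exists_dl_ne hA
  have key : ∀ (e : ZMod p) (u : K), e ≠ 0 → u ≠ 0 → 1 + u ≠ 0 → cl p u = e • A →
      cl p (1 + u) = e • B → u * (dl p D A - dl p D B) = dl p D B := by
    intro e u he hu hu1 h1 h2
    have a1 := congrArg (dl p D) h1
    have a2 := congrArg (dl p D) h2
    rw [dl_cl, dl_smul] at a1 a2
    rw [map_add, D.map_one_eq_zero, zero_add, div_eq_iff hu1] at a2
    rw [div_eq_iff hu] at a1
    apply mul_left_cancel₀ (cast_ne_zero (K := K) he)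
    linear_combination a2 - a1
  have k1 := key e u he hu hu1 h1 h2
  have k2 := key e' u' he' hu' hu1' h1' h2'
  have hne : dl p D A - dl p D B ≠ 0 := by
    intro h0
    rw [h0, mul_zero] at k1
    rw [← k1, sub_zero] at h0
    exact hD h0
  have huu : u = u' := mul_right_cancel₀ hne (k1.trans k2.symm)
  refine ⟨huu, ?_⟩
  subst huu
  have a := congrArg (dl p D) (h1.symm.trans h1')
  rw [dl_smul, dl_smul] at a
  exact (ZMod.castHom (dvd_refl p) K).injective (mul_right_cancel₀ hD a)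

lemma Gd.unique {e e' : ZMod p} (he : e ≠ 0) (he' : e' ≠ 0) {A B : KOne K p} (hA : A ≠ 0)
    (h : Gd e A B) (h' : Gd e' A B) : e = e' := by
  obtain ⟨u, hu, hu1, h1, h2⟩ := h
  obtain ⟨u', hu', hu1', h1', h2'⟩ := h'
  exact (rep_unique he he' hA hu hu1 hu' hu1' h1 h2 h1' h2').2

lemma eq_of_dl_par {X A B : KOne K p} (hA : Par X A) (hB : Par X B) (D : Der K)
    (hD : dl p D X ≠ 0) (h : dl p D A = dl p D B) : A = B := by
  apply eq_of_dl
  intro D'
  apply mul_left_cancel₀ hD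
  rw [hA D D', hB D D', h]

lemma Par.smul_right {A B : KOne K p} (h : Par A B) (e : ZMod p) : Par A (e • B) :=
  fun D D' => by
    rw [dl_smul, dl_smul]
    linear_combination (ZMod.castHom (dvd_refl p) K e) * h D D'

lemma gd_of (D : Der K) {x f : K} (hx0 : x ≠ 0) (hDx : D x = x) (hf : f ∈ Cen x)
    {r : K} (hr : D f / f = r) (hr0 : r ≠ 0) (hρ0 : r⁻¹ - 1 ≠ 0) (e : ZMod p)
    (hc : D (r⁻¹ - 1) = -(ZMod.castHom (dvd_refl p) K e) * (r⁻¹ - 1)) :
    Gd e (cl p x) (cl p f) := by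
  have hrC : r ∈ Cen x := hr ▸ div_mem (der_mem_Cen hf D (hDx.symm ▸ self_mem_Cen x)) hf
  set ρ := r⁻¹ - 1 with hρ
  have hρC : ρ ∈ Cen x := sub_mem (inv_mem hrC) (one_mem _)
  have hX : dl p D (cl p x) = 1 := by rw [dl_cl, hDx, div_self hx0]
  have h1 : 1 + ρ⁻¹ = (r * ρ)⁻¹ := by
    have : r * ρ = 1 - r := by rw [hρ]; field_simp
    field_simp
    linear_combination this
  have hDu : D ρ⁻¹ = ZMod.castHom (dvd_refl p) K e * ρ⁻¹ := by
    rw [D.leibniz_inv, hc, smul_eq_mul]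
    field_simp
  refine ⟨ρ⁻¹, inv_ne_zero hρ0, h1 ▸ inv_ne_zero (mul_ne_zero hr0 hρ0), ?_, ?_⟩
  · apply eq_of_dl_par (par_of_mem_Cen (inv_mem hρC)) ((Par.refl _).smul_right e) D
      (hX ▸ one_ne_zero)
    rw [dl_cl, dl_smul, hX, hDu]
    field_simp
  · apply eq_of_dl_par (par_of_mem_Cen (add_mem (one_mem _) (inv_mem hρC)))
      ((par_of_mem_Cen hf).smul_right e) D (hX ▸ one_ne_zero)
    rw [dl_cl, dl_smul, dl_cl, hr, map_add, D.map_one_eq_zero, zero_add, hDu, h1]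
    field_simp

lemma exists_der_pair {x y : K} (hy0 : y ≠ 0) (h : y ∉ Cen x) :
    ∃ D : Der K, D x = 0 ∧ D y = y := by
  rw [mem_Cen] at h
  push Not at h
  obtain ⟨D, h1, h2⟩ := h
  refine ⟨(y / D y) • D, by simp [h1], ?_⟩
  simp only [Derivation.coe_smul, Pi.smul_apply, smul_eq_mul]
  field_simp

theorem config {X Y F G W : KOne K p} (hXY : ¬ Par X Y) (hF : Par X F) (hG : Par Y G)
    (hW1 : Par (X - Y) (W - Y)) (hW2 : Par (F - G) (W - G)) (hWX : W ≠ X) (hWY : W ≠ Y)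
    (hFX : ∀ n : ℕ, F ≠ n • X) (hG0 : G ≠ 0) :
    ∃ e : ZMod p, e ≠ 0 ∧ Gd e X F ∧ Gd e Y G := by
  obtain ⟨x, hx0, rfl⟩ := cl_surj X
  obtain ⟨y, hy0, rfl⟩ := cl_surj Y
  obtain ⟨f, hf0, rfl⟩ := cl_surj F
  obtain ⟨g, hg0, rfl⟩ := cl_surj G
  obtain ⟨w, hw0, rfl⟩ := cl_surj W
  have hyx : y ∉ Cen x := fun h => hXY (par_of_mem_Cen h)
  have hxy : x ∉ Cen y := fun h => hXY (par_of_mem_Cen h).symm
  have hxP : x ∉ PP K p := fun h => hxy (PP_le_Cen y h)
  have hyP : y ∉ PP K p := fun h => hyx (PP_le_Cen x h)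
  have hxyP : x / y ∉ PP K p := fun h => hxy (by
    have := mul_mem (PP_le_Cen y h) (self_mem_Cen y)
    rwa [div_mul_cancel₀ _ hy0] at this)
  obtain ⟨D1, h1y, h1x⟩ := exists_der_pair hx0 hxy
  obtain ⟨D2, h2x, h2y⟩ := exists_der_pair hy0 hyx
  have hfC : f ∈ Cen x := mem_Cen_of_par hxP hf0 hF
  have hgC : g ∈ Cen y := mem_Cen_of_par hyP hg0 hG
  rw [← cl_div hx0 hy0, ← cl_div hw0 hy0] at hW1
  have hwC : w / y ∈ Cen (x / y) := mem_Cen_of_par hxyP (div_ne_zero hw0 hy0) hW1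
  have h2f : D2 f = 0 := mem_Cen.1 hfC D2 h2x
  have h1g : D1 g = 0 := mem_Cen.1 hgC D1 h1y
  have h1xy : D1 (x / y) = x / y := by
    rw [D1.leibniz_div_const _ _ h1y, h1x, smul_eq_mul]; field_simp
  have hDxy : (D1 + D2) (x / y) = 0 := by
    rw [Derivation.leibniz_div]
    simp only [Derivation.add_apply, h1x, h1y, h2x, h2y, smul_eq_mul]
    ring
  obtain ⟨r, hr⟩ : ∃ r, D1 f / f = r := ⟨_, rfl⟩
  obtain ⟨s, hs⟩ : ∃ s, D2 g / g = s := ⟨_, rfl⟩
  obtain ⟨t, ht⟩ : ∃ t, D1 w / w = t := ⟨_, rfl⟩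
  obtain ⟨t', ht'⟩ : ∃ t', D2 w / w = t' := ⟨_, rfl⟩
  have hX1 : dl p D1 (cl p x) = 1 := by rw [dl_cl, h1x, div_self hx0]
  have hY2 : dl p D2 (cl p y) = 1 := by rw [dl_cl, h2y, div_self hy0]
  have hX2 : dl p D2 (cl p x) = 0 := by rw [dl_cl, h2x, zero_div]
  have hY1 : dl p D1 (cl p y) = 0 := by rw [dl_cl, h1y, zero_div]
  have hF1 : dl p D1 (cl p f) = r := by rw [dl_cl, hr]
  have hF2 : dl p D2 (cl p f) = 0 := by rw [dl_cl, h2f, zero_div]
  have hG1 : dl p D1 (cl p g) = 0 := by rw [dl_cl, h1g, zero_div]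
  have hG2 : dl p D2 (cl p g) = s := by rw [dl_cl, hs]
  have hW1' : dl p D1 (cl p w) = t := by rw [dl_cl, ht]
  have hW2' : dl p D2 (cl p w) = t' := by rw [dl_cl, ht']
  have htt : t + t' = 1 := by
    have := hW1 D1 D2
    rw [cl_div hx0 hy0, cl_div hw0 hy0] at this
    simp only [map_sub, hX1, hX2, hY1, hY2, hW1', hW2'] at this
    linear_combination this
  have hrs : s * t + r * t' = r * s := by
    have := hW2 D1 D2
    simp only [map_sub, hF1, hF2, hG1, hG2, hW1', hW2'] at this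
    linear_combination this
  have hr0 : r ≠ 0 := by
    intro h0
    apply hFX 0
    rw [zero_nsmul]
    exact eq_of_dl_par hF (par_zero_right _) D1 (hX1 ▸ one_ne_zero) (by rw [hF1, h0, map_zero])
  have hs0 : s ≠ 0 := by
    intro h0
    apply hG0
    exact eq_of_dl_par hG (par_zero_right _) D2 (hY2 ▸ one_ne_zero) (by rw [hG2, h0, map_zero])
  have hXY1 : dl p D1 (cl p (x / y)) ≠ 0 := by
    rw [cl_div hx0 hy0, map_sub, hX1, hY1]; simp
  have ht0 : t ≠ 0 := by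
    intro h0
    apply hWY
    rw [← sub_eq_zero, ← cl_div hw0 hy0]
    exact eq_of_dl_par hW1 (par_zero_right _) D1 hXY1
      (by rw [cl_div hw0 hy0, map_sub, hW1', hY1, h0, map_zero, sub_zero])
  have ht0' : t' ≠ 0 := by
    intro h0
    apply hWX
    have := eq_of_dl_par hW1 (Par.refl _) D1 hXY1
      (by rw [cl_div hw0 hy0, cl_div hx0 hy0, map_sub, map_sub, hW1', hY1, hX1, ← htt, h0,
        add_zero])
    rw [cl_div hw0 hy0, cl_div hx0 hy0] at this
    exact sub_left_injective this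
  have hρ0 : r⁻¹ - 1 ≠ 0 := by
    intro h0
    apply hFX 1
    rw [one_nsmul]
    refine eq_of_dl_par hF (Par.refl _) D1 (hX1 ▸ one_ne_zero) ?_
    rw [hF1, hX1, ← inv_eq_one, ← sub_eq_zero, h0]
  have hrC : r ∈ Cen x := hr ▸ div_mem (der_mem_Cen hfC D1 (h1x.symm ▸ self_mem_Cen x)) hfC
  have hsC : s ∈ Cen y := hs ▸ div_mem (der_mem_Cen hgC D2 (h2y.symm ▸ self_mem_Cen y)) hgC
  have htC : t ∈ Cen (x / y) := by
    have h1 := div_mem (der_mem_Cen hwC D1 (h1xy.symm ▸ self_mem_Cen (x / y))) hwC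
    have h2 : D1 (w / y) / (w / y) = t := by
      rw [← dl_cl (p := p), cl_div hw0 hy0, map_sub, hW1', hY1, sub_zero]
    rwa [h2] at h1
  have hDt : (D1 + D2) t = 0 := mem_Cen.1 htC _ hDxy
  have hDt' : (D1 + D2) t' = 0 := by
    have : t' = 1 - t := by linear_combination htt
    rw [this, map_sub, hDt, Derivation.map_one_eq_zero, sub_zero]
  obtain ⟨ρ, hρ⟩ : ∃ ρ, r⁻¹ - 1 = ρ := ⟨_, rfl⟩
  obtain ⟨σ, hσ⟩ : ∃ σ, s⁻¹ - 1 = σ := ⟨_, rfl⟩
  have hρC : ρ ∈ Cen x := hρ ▸ sub_mem (inv_mem hrC) (one_mem _)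
  have hσC : σ ∈ Cen y := hσ ▸ sub_mem (inv_mem hsC) (one_mem _)
  have hlin : t * ρ + t' * σ = 0 := by
    rw [← hρ, ← hσ]
    field_simp
    linear_combination hrs - r * s * htt
  rw [hρ] at hρ0
  have hσ0 : σ ≠ 0 := by
    intro h0
    rw [h0, mul_zero, add_zero] at hlin
    exact mul_ne_zero ht0 hρ0 hlin
  have h2ρ : D2 ρ = 0 := mem_Cen.1 hρC D2 h2x
  have h1σ : D1 σ = 0 := mem_Cen.1 hσC D1 h1y
  have hlin' : t * D1 ρ + t' * D2 σ = 0 := by
    have := congrArg (D1 + D2) hlin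
    rw [map_add, Derivation.leibniz, Derivation.leibniz, hDt, hDt', map_zero] at this
    simp only [Derivation.add_apply, h2ρ, h1σ, smul_eq_mul] at this
    linear_combination this
  obtain ⟨c, hc⟩ : ∃ c, D1 ρ / ρ = c := ⟨_, rfl⟩
  have hc1 : D1 ρ = c * ρ := by rw [← hc]; field_simp
  have hc2 : D2 σ = c * σ := by
    apply mul_left_cancel₀ ht0'
    linear_combination hlin' - t * hc1 - c * hlin
  have hcC : c ∈ Cen y := by
    have h1 := div_mem (der_mem_Cen hσC D2 (h2y.symm ▸ self_mem_Cen y)) hσC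
    rwa [hc2, mul_div_cancel_right₀ _ hσ0] at h1
  obtain ⟨i, hi, -⟩ := eigen (p := p) D1 hx0 h1x hρC hρ0 (mem_Cen.1 hcC D1 h1y) hc1
  have hcast : -(ZMod.castHom (dvd_refl p) K (-(i : ZMod p))) = c := by
    rw [map_neg, map_natCast, neg_neg, hi]
  refine ⟨-(i : ZMod p), ?_, ?_, ?_⟩
  · intro h0
    rw [h0, map_zero, neg_zero] at hcast
    rw [← hcast, zero_mul, ← hρ, map_sub, Derivation.map_one_eq_zero, sub_zero,
      Derivation.leibniz_inv, smul_eq_mul] at hc1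
    have h1r : D1 r = 0 := by
      simpa [hr0] using hc1
    obtain ⟨n, -, hn⟩ := eigen (p := p) D1 hx0 h1x hfC hf0 h1r (by rw [← hr]; field_simp)
    apply hFX n
    rw [← cl_pow hx0, cl_eq_iff hf0 (pow_ne_zero _ hx0)]
    exact hn
  · exact gd_of D1 hx0 h1x hfC hr hr0 (hρ ▸ hρ0) _ (by rw [hcast, hρ, hc1])
  · exact gd_of D2 hy0 h2y hgC hs hs0 (hσ ▸ hσ0) _ (by rw [hcast, hσ, hc2])

lemma one_add_not_mem {u : K} (hu : u ∉ PP K p) : 1 + u ∉ PP K p := fun h =>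
  hu (by simpa using sub_mem h (one_mem (PP K p)))

variable {L : Type*} [Field L] [CharP L p]

lemma pair_scalar (Θ : KOne K p ≃ₗ[ZMod p] KOne L p)
    (hpar : ∀ A B, Par (Θ A) (Θ B) ↔ Par A B) {u v : K} (hu : u ∉ PP K p) (hv : v ∉ Cen u) :
    ∃ e : ZMod p, e ≠ 0 ∧ Gd e (Θ (cl p u)) (Θ (cl p (1 + u))) ∧
      Gd e (Θ (cl p v)) (Θ (cl p (1 + v))) := by
  have hvP : v ∉ PP K p := fun h => hv (PP_le_Cen u h)
  have hu0 := ne_zero_of_not_mem hu
  have hv0 := ne_zero_of_not_mem hvP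
  have hu1 := ne_zero_of_not_mem (one_add_not_mem hu)
  have hv1 := ne_zero_of_not_mem (one_add_not_mem hvP)
  have huv : u - v ≠ 0 := by
    intro h
    apply hv
    rw [← sub_eq_zero.1 h]; exact self_mem_Cen u
  apply config (W := Θ (cl p (u - v)))
  · rw [hpar]
    exact fun h => hv (mem_Cen_of_par hu hv0 h)
  · rw [hpar]
    exact par_of_mem_Cen (add_mem (one_mem _) (self_mem_Cen _))
  · rw [hpar]
    exact par_of_mem_Cen (add_mem (one_mem _) (self_mem_Cen _))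
  · rw [← map_sub, ← map_sub, hpar, ← cl_div hu0 hv0, ← cl_div huv hv0]
    apply par_of_mem_Cen
    have : (u - v) / v = u / v - 1 := by field_simp
    rw [this]
    exact sub_mem (self_mem_Cen _) (one_mem _)
  · rw [← map_sub, ← map_sub, hpar, ← cl_div hu1 hv1, ← cl_div huv hv1]
    apply par_of_mem_Cen
    have : (u - v) / (1 + v) = (1 + u) / (1 + v) - 1 := by field_simp; ring
    rw [this]
    exact sub_mem (self_mem_Cen _) (one_mem _)
  · rw [Ne, Θ.injective.eq_iff, cl_eq_iff huv hu0]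
    intro h
    apply hv
    have : v = u * (1 - (u - v) / u) := by field_simp; ring
    rw [this]
    exact mul_mem (self_mem_Cen _) (sub_mem (one_mem _) (PP_le_Cen u h))
  · rw [Ne, Θ.injective.eq_iff, cl_eq_iff huv hv0]
    intro h
    apply hv
    have : v = u / (1 + (u - v) / v) := by
      have h1 : 1 + (u - v) / v = u / v := by field_simp; ring
      rw [h1]; field_simp
    rw [this]
    exact div_mem (self_mem_Cen _) (add_mem (one_mem _) (PP_le_Cen u h))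
  · intro n
    rw [← map_nsmul, Ne, Θ.injective.eq_iff]
    intro h
    obtain ⟨D, -, hD⟩ := exists_der_pair (x := 0) hu0 (fun h => hu (by
      rw [mem_PP_iff]; exact fun D => mem_Cen.1 h D (map_zero D)))
    have h1 := congrArg (dl p D) h
    rw [map_nsmul, dl_cl, dl_cl, map_add, D.map_one_eq_zero, zero_add, hD, div_self hu0,
      nsmul_eq_mul, mul_one, div_eq_iff hu1] at h1
    have h2 : (1 : K) - n ≠ 0 := by
      intro h0
      have : (n : K) = 1 := by linear_combination -h0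
      rw [this] at h1
      have h3 : (1 : K) = 0 := by linear_combination -h1
      exact one_ne_zero h3
    apply hu
    have : u = n / (1 - n) := by field_simp; linear_combination h1
    rw [this]
    exact div_mem (natCast_mem _ _) (sub_mem (one_mem _) (natCast_mem _ _))
  · rw [Ne, LinearEquiv.map_eq_zero_iff]
    exact cl_ne_zero (one_add_not_mem hvP)

theorem exists_scalar (Θ : KOne K p ≃ₗ[ZMod p] KOne L p)
    (hpar : ∀ A B, Par (Θ A) (Θ B) ↔ Par A B) (hK : ∀ x : K, ∃ y, y ∉ Cen x) :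
    ∃ e : ZMod p, e ≠ 0 ∧ ∀ u : K, u ∉ PP K p → Gd e (Θ (cl p u)) (Θ (cl p (1 + u))) := by
  obtain ⟨u0, hu0⟩ := hK 0
  have hu0P : u0 ∉ PP K p := fun h => hu0 (PP_le_Cen 0 h)
  obtain ⟨v0, hv0⟩ := hK u0
  have hv0P : v0 ∉ PP K p := fun h => hv0 (PP_le_Cen u0 h)
  obtain ⟨e0, he0, h1, h2⟩ := pair_scalar Θ hpar hu0P hv0
  refine ⟨e0, he0, fun u hu => ?_⟩
  by_cases h : u ∈ Cen u0
  · have hv : v0 ∉ Cen u := fun h' => hv0 (mem_Cen.2 fun D hD =>
      mem_Cen.1 h' D (mem_Cen.1 h D hD))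
    obtain ⟨e, he, h3, h4⟩ := pair_scalar Θ hpar hu hv
    rwa [← Gd.unique he he0 (by
      rw [Ne, LinearEquiv.map_eq_zero_iff]; exact cl_ne_zero hv0P) h4 h2]
  · obtain ⟨e, he, h3, h4⟩ := pair_scalar Θ hpar hu0P h
    rwa [← Gd.unique he he0 (by
      rw [Ne, LinearEquiv.map_eq_zero_iff]; exact cl_ne_zero hu0P) h3 h1]

end Crest.Agent.R9
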