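import Mathlib

/-!
# Derivations of fields of characteristic `p`

* `exists_der`: if `M ⊇ K^p` is a subfield and `y ∉ M` there is a derivation killing `M` with
  `D y = 1`.
* `Cen x`: the subfield of the elements killed by all derivations that kill `x` (`= K^p(x)`).
-/

set_option autoImplicit false
set_option linter.unusedSectionVars false

namespace Crest.Agent.R9

open Polynomial IntermediateField

/-- all derivations of `K` -/
abbrev Der (K : Type*) [Field K] := Derivation ℤ K K

variable {K : Type*} [Field K] {p : ℕ} [Fact p.Prime] [CharP K p]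

variable (K p) in
/-- the subfield of `p`-th powers -/
def PP : Subfield K := (frobenius K p).fieldRange

lemma mem_PP {x : K} : x ∈ PP K p ↔ ∃ y : K, y ^ p = x := by
  simp [PP, frobenius_def]

lemma pow_mem_PP (x : K) : x ^ p ∈ PP K p := mem_PP.2 ⟨x, rfl⟩

lemma der_pow (D : Der K) (x : K) : D (x ^ p) = 0 := by
  rw [D.leibniz_pow, nsmul_eq_mul, CharP.cast_eq_zero K p, zero_mul]

lemma der_PP (D : Der K) {x : K} (hx : x ∈ PP K p) : D x = 0 := by
  obtain ⟨y, rfl⟩ := mem_PP.1 hx
  exact der_pow D y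

lemma minpoly_eq (N : Subfield K) (hN : ∀ z : K, z ^ p ∈ N) {z : K} (hz : z ∉ N) :
    minpoly N z = X ^ p - C (⟨z ^ p, hN z⟩ : N) := by
  have hp : p.Prime := Fact.out
  symm
  apply minpoly.eq_of_irreducible_of_monic
  · apply X_pow_sub_C_irreducible_of_prime hp
    intro b hb
    apply hz
    have h1 : (b : K) ^ p = z ^ p := by
      have := congrArg (fun t : N => (t : K)) hb
      simpa using this
    have : (b : K) = z := frobenius_inj K p (by simpa [frobenius_def] using h1)
    rw [← this]; exact b.2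
  · simp only [map_sub, map_pow, aeval_X, aeval_C]
    exact sub_self _
  · exact monic_X_pow_sub_C _ hp.ne_zero

lemma isIntegral_of_pow (N : Subfield K) (hN : ∀ z : K, z ^ p ∈ N) (z : K) : IsIntegral N z := by
  have hp : p.Prime := Fact.out
  refine ⟨X ^ p - C (⟨z ^ p, hN z⟩ : N), monic_X_pow_sub_C _ hp.ne_zero, ?_⟩
  rw [← aeval_def]
  simp only [map_sub, map_pow, aeval_X, aeval_C]
  exact sub_self _

lemma finrank_adjoin_eq (N : Subfield K) (hN : ∀ z : K, z ^ p ∈ N) {z : K} (hz : z ∉ N) :
    Module.finrank N N⟮z⟯ = p := by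
  rw [adjoin.finrank (isIntegral_of_pow N hN z), minpoly_eq N hN hz, natDegree_X_pow_sub_C]

theorem exists_der (M : Subfield K) (hM : ∀ z : K, z ^ p ∈ M) {y : K} (hy : y ∉ M) :
    ∃ D : Der K, (∀ x ∈ M, D x = 0) ∧ D y = 1 := by
  have hp : p.Prime := Fact.out
  obtain ⟨N, hMN, hN⟩ := zorn_le_nonempty₀ {N : Subfield K | y ∉ N} (by
    intro c hc hch N0 hN0
    refine ⟨sSup c, ?_, fun z hz => le_sSup hz⟩
    intro hmem
    rw [Subfield.mem_sSup_of_directedOn ⟨N0, hN0⟩ hch.directedOn] at hmem
    obtain ⟨N1, h1, h2⟩ := hmem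
    exact hc h1 h2) M hy
  have hyN : y ∉ N := hN.prop
  have hNp : ∀ z : K, z ^ p ∈ N := fun z => hMN (hM z)
  have htop : ∀ z : K, z ∈ N⟮y⟯ := by
    intro z
    by_cases hz : z ∈ N
    · exact (N⟮y⟯).algebraMap_mem ⟨z, hz⟩
    have hyz : y ∈ N⟮z⟯ := by
      by_contra hcon
      have hle : N ≤ (N⟮z⟯).toSubfield := fun w hw => (N⟮z⟯).algebraMap_mem ⟨w, hw⟩
      have := hN.le_of_ge (y := (N⟮z⟯).toSubfield) hcon hle
      exact hz (this (mem_adjoin_simple_self N z))
    have hle : N⟮y⟯ ≤ N⟮z⟯ := by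
      rw [adjoin_simple_le_iff]; exact hyz
    have : FiniteDimensional N N⟮z⟯ := adjoin.finiteDimensional (isIntegral_of_pow N hNp z)
    have heq : N⟮y⟯ = N⟮z⟯ := eq_of_le_of_finrank_eq hle (by
      rw [finrank_adjoin_eq N hNp hyN, finrank_adjoin_eq N hNp hz])
    rw [heq]; exact mem_adjoin_simple_self N z
  have hsurj : Function.Surjective (aeval y : N[X] →ₐ[N] K) := by
    intro z
    have h1 := htop z
    rw [← mem_toSubalgebra,
      adjoin_simple_toSubalgebra_of_isAlgebraic (isIntegral_of_pow N hNp y).isAlgebraic,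
      Algebra.adjoin_singleton_eq_range_aeval] at h1
    exact h1
  have hd : ∀ q : N[X], aeval y q = 0 → aeval y ((derivative' : Derivation N N[X] N[X]) q) = 0 := by
    intro q hq
    obtain ⟨r, rfl⟩ := minpoly.dvd N y hq
    have h0 : derivative (minpoly N y) = 0 := by
      rw [minpoly_eq N hNp hyN]
      simp only [derivative_sub, derivative_X_pow, derivative_C, sub_zero]
      have : ((p : ℕ) : N) = 0 := by
        apply Subtype.ext; simp
      rw [this]; simp
    simp [derivative'_apply, h0]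
  refine ⟨(Derivation.liftOfSurjective hsurj hd).restrictScalars ℤ, ?_, ?_⟩
  · intro x hx
    rw [Derivation.restrictScalars_apply]
    exact Derivation.map_algebraMap _ (⟨x, hMN hx⟩ : N)
  · rw [Derivation.restrictScalars_apply]
    have := Derivation.liftOfSurjective_apply hsurj hd X
    simpa [derivative'_apply] using this

theorem mem_PP_iff {x : K} : x ∈ PP K p ↔ ∀ D : Der K, D x = 0 := by
  refine ⟨fun h D => der_PP D h, fun h => ?_⟩
  by_contra hx
  obtain ⟨D, -, hD⟩ := exists_der (PP K p) pow_mem_PP hx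
  rw [h D] at hD
  exact zero_ne_one hD

/-- The kernel of a derivation. -/
def kerD (D : Der K) : Subfield K where
  carrier := {x | D x = 0}
  mul_mem' := by
    intro a b ha hb
    simp only [Set.mem_ofPred_eq] at *
    rw [D.leibniz, ha, hb]; simp
  one_mem' := D.map_one_eq_zero
  add_mem' := by
    intro a b ha hb
    simp only [Set.mem_ofPred_eq] at *
    rw [map_add, ha, hb]; simp
  zero_mem' := map_zero D
  neg_mem' := by
    intro a ha
    simp only [Set.mem_ofPred_eq] at *
    rw [map_neg, ha]; simp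
  inv_mem' := by
    intro a ha
    simp only [Set.mem_ofPred_eq] at *
    rw [D.leibniz_inv, ha]; simp

@[simp] lemma mem_kerD {D : Der K} {x : K} : x ∈ kerD D ↔ D x = 0 := Iff.rfl

/-- The elements killed by every derivation that kills `x`. -/
def Cen (x : K) : Subfield K := ⨅ D : {D : Der K // D x = 0}, kerD D.1

lemma mem_Cen {x y : K} : y ∈ Cen x ↔ ∀ D : Der K, D x = 0 → D y = 0 := by
  simp [Cen, Subfield.mem_iInf]

lemma self_mem_Cen (x : K) : x ∈ Cen x := mem_Cen.2 fun _ h => h

lemma PP_le_Cen (x : K) : PP K p ≤ Cen x := fun _ h => mem_Cen.2 fun D _ => der_PP D h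

lemma Cen_le (M : Subfield K) (hM : ∀ z : K, z ^ p ∈ M) {x : K} (hx : x ∈ M) : Cen x ≤ M := by
  intro y hy
  by_contra h
  obtain ⟨D, h1, h2⟩ := exists_der M hM h
  rw [mem_Cen.1 hy D (h1 x hx)] at h2
  exact zero_ne_one h2

/-- On `Cen x` all derivations are proportional. -/
lemma cross_of_mem_Cen {x y : K} (hy : y ∈ Cen x) (D D' : Der K) :
    D x * D' y = D' x * D y := by
  have := mem_Cen.1 hy (D x • D' - D' x • D) (by simp [mul_comm])
  simpa [sub_eq_zero] using this

lemma mem_PP_of_mem_Cen {x y : K} (hy : y ∈ Cen x) (D : Der K) (hx : D x ≠ 0) (h : D y = 0) :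
    y ∈ PP K p := by
  rw [mem_PP_iff]
  intro D'
  have := cross_of_mem_Cen hy D D'
  rw [h, mul_zero] at this
  exact (mul_eq_zero.1 this).resolve_left hx

lemma der_mem_Cen {x y : K} (hy : y ∈ Cen x) (D : Der K) (hx : D x ∈ Cen x) : D y ∈ Cen x := by
  rw [mem_Cen]
  intro D' h'
  have h1 := mem_Cen.1 hy ⁅D', D⁆ (by
    rw [Derivation.commutator_apply, h', mem_Cen.1 hx D' h']; simp)
  rw [Derivation.commutator_apply, mem_Cen.1 hy D' h'] at h1
  simpa using h1

lemma iterate_eq (D : Der K) {x : K} (hx : D x = x) {y : K} (hy : y ∈ Cen x) :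
    (D.toLinearMap ^ p) y = D y := by
  have h1 : y ∈ (PP K p)⟮x⟯ :=
    Cen_le ((PP K p)⟮x⟯).toSubfield
      (fun z => ((PP K p)⟮x⟯).algebraMap_mem ⟨z ^ p, pow_mem_PP z⟩)
      (mem_adjoin_simple_self _ x) hy
  rw [← mem_toSubalgebra,
      adjoin_simple_toSubalgebra_of_isAlgebraic
        (isIntegral_of_pow (PP K p) pow_mem_PP x).isAlgebraic,
      Algebra.adjoin_singleton_eq_range_aeval] at h1
  obtain ⟨q, rfl⟩ := h1
  clear hy
  change (D.toLinearMap ^ p) (aeval x q) = D (aeval x q)
  induction q using Polynomial.induction_on' with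
  | add q r hq hr => simp only [map_add, hq, hr]
  | monomial n a =>
    rw [aeval_monomial]
    have ha : D (algebraMap (PP K p) K a) = 0 := der_PP D a.2
    have key : ∀ c : K, D c = 0 → D (c * x ^ n) = (n : K) * c * x ^ n := by
      intro c hc
      rw [D.leibniz, hc, D.leibniz_pow, hx]
      rcases n with _ | n
      · simp
      · simp only [smul_eq_mul, nsmul_eq_mul, Nat.add_sub_cancel, mul_zero, add_zero]
        ring
    have key2 : ∀ m : ℕ, (D.toLinearMap ^ m) (algebraMap (PP K p) K a * x ^ n)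
        = (n : K) ^ m * algebraMap (PP K p) K a * x ^ n := by
      intro m
      induction m with
      | zero => simp
      | succ m ih =>
        rw [pow_succ', Module.End.mul_apply, ih]
        have := key ((n : K) ^ m * algebraMap (PP K p) K a) (by
          rw [D.leibniz, ha, D.leibniz_pow, D.map_natCast]; simp)
        change D _ = _
        rw [this]; ring
    rw [key2, key _ ha]
    have : (n : K) ^ p = n := by
      have := map_natCast (frobenius K p) n
      rwa [frobenius_def] at this
    rw [this]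

/-- Eigenvectors of `x d/dx` on `K^p(x)`. -/
theorem eigen (D : Der K) {x : K} (hx0 : x ≠ 0) (hx : D x = x) {y c : K} (hy : y ∈ Cen x)
    (hy0 : y ≠ 0) (hc : D c = 0) (h : D y = c * y) :
    ∃ i : ℕ, c = i ∧ y / x ^ i ∈ PP K p := by
  have h1 : ∀ m : ℕ, (D.toLinearMap ^ m) y = c ^ m * y := by
    intro m
    induction m with
    | zero => simp
    | succ m ih =>
      rw [pow_succ', Module.End.mul_apply, ih]
      change D _ = _
      rw [D.leibniz, D.leibniz_pow, hc, h]
      simp only [smul_eq_mul, mul_zero, smul_zero, add_zero]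
      ring
  have h2 : c ^ p = c := by
    have := iterate_eq (p := p) D hx hy
    rw [h1, h] at this
    exact mul_right_cancel₀ hy0 this
  rw [← Subfield.mem_bot_iff_pow_eq_self, mem_bot_iff_intCast p K] at h2
  obtain ⟨n, hn⟩ := h2
  have hp : p.Prime := Fact.out
  have hn' : c = ((n % p).toNat : ℕ) := by
    have h0 : (0 : ℤ) ≤ n % p := Int.emod_nonneg _ (by exact_mod_cast hp.ne_zero)
    rw [← Int.cast_natCast, Int.toNat_of_nonneg h0, ← hn]
    conv_lhs => rw [← Int.emod_add_mul_ediv n p]
    push_cast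
    rw [CharP.cast_eq_zero K p]; ring
  refine ⟨_, hn', ?_⟩
  generalize (n % p).toNat = i at hn'
  apply mem_PP_of_mem_Cen (x := x) (div_mem hy (pow_mem (self_mem_Cen x) i)) D (by rw [hx]; exact hx0)
  rw [D.leibniz_div, h, D.leibniz_pow, hx, hn']
  rcases i with _ | i
  · simp
  · simp only [smul_eq_mul, nsmul_eq_mul, Nat.add_sub_cancel]
    ring

end Crest.Agent.R9
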