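import Crest.Agent.R9.Der

/-!
# Finitely generated fields over algebraically closed fields of characteristic `p`

* `exists_not_mem_Cen`: transcendence degree at least two gives `p`-rank at least two.
* `mem_of_roots`: the elements having `p^n`-th roots for all `n` are the constants.
-/

set_option autoImplicit false
set_option linter.unusedSectionVars false

namespace Crest.Agent.R9

open Polynomial IntermediateField

variable {K : Type*} [Field K] {p : ℕ} [Fact p.Prime] [CharP K p]

lemma essFiniteType_of_closure (k : Subfield K)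
    (hK : ∃ s : Finset K, Subfield.closure ((k : Set K) ∪ (s : Set K)) = ⊤) :
    Algebra.EssFiniteType k K := by
  obtain ⟨s, hs⟩ := hK
  rw [← IntermediateField.fg_top_iff]
  refine ⟨s, ?_⟩
  apply toSubfield_injective
  rw [adjoin_toSubfield, top_toSubfield, ← hs]
  congr 2
  ext x
  exact ⟨fun ⟨a, ha⟩ => ha ▸ a.2, fun h => ⟨⟨x, h⟩, rfl⟩⟩

theorem exists_not_mem_Cen (k : Subfield K)
    (hK : ∃ s : Finset K, Subfield.closure ((k : Set K) ∪ (s : Set K)) = ⊤)
    (hK2 : 2 ≤ Algebra.trdeg k K) (x : K) : ∃ y : K, y ∉ Cen x := by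
  by_contra hcon
  push Not at hcon
  have h1 := essFiniteType_of_closure k hK
  have h2 : Algebra.EssFiniteType k⟮x⟯ K := .of_comp k _ _
  have h3 : Algebra.FormallyUnramified k⟮x⟯ K := by
    constructor
    refine subsingleton_of_forall_eq 0 fun w => ?_
    rw [← Module.forall_dual_apply_eq_zero_iff K]
    intro φ
    have : KaehlerDifferential.linearMapEquivDerivation k⟮x⟯ K φ = 0 := by
      set D := KaehlerDifferential.linearMapEquivDerivation k⟮x⟯ K φ
      ext y
      have hx : (D.restrictScalars ℤ) x = 0 :=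
        D.map_algebraMap (⟨x, mem_adjoin_simple_self k x⟩ : k⟮x⟯)
      exact mem_Cen.1 (hcon y) (D.restrictScalars ℤ) hx
    rw [LinearEquiv.map_eq_zero_iff] at this
    simp [this]
  have h4 : Algebra.IsSeparable k⟮x⟯ K := Algebra.FormallyUnramified.isSeparable _ _
  have h5 : Algebra.IsAlgebraic k⟮x⟯ K := inferInstance
  have h6 : Algebra.IsAlgebraic (Algebra.adjoin k ({x} : Set K)) K :=
    isAlgebraic_adjoin_iff_top.1 h5
  have h7 := Algebra.IsAlgebraic.trdeg_le_cardinalMk k ({x} : Set K)
  have := hK2.trans h7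
  simp at this

theorem mem_of_roots (k : Subfield K) [IsAlgClosed k]
    (hK : ∃ s : Finset K, Subfield.closure ((k : Set K) ∪ (s : Set K)) = ⊤)
    {z : K} (hz : ∀ n : ℕ, ∃ w : K, w ^ p ^ n = z) : z ∈ k := by
  have hp : p.Prime := Fact.out
  by_contra hzk
  have htr : Transcendental k z := by
    intro halg
    have := minpoly.mem_range_of_degree_eq_one k z
      (IsAlgClosed.degree_eq_one_of_irreducible k (minpoly.irreducible halg.isIntegral))
    obtain ⟨a, ha⟩ := this
    exact hzk (ha ▸ a.2)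
  obtain ⟨t, hzt, ht⟩ := exists_isTranscendenceBasis_superset (R := k) (s := {z})
    (algebraicIndependent_unique_type_iff.mpr htr)
  have hzt' : z ∈ t := hzt rfl
  have h1 := essFiniteType_of_closure k hK
  set K0 := adjoin k (Set.range ((↑) : t → K)) with hK0
  have h2 : Algebra.EssFiniteType K0 K := .of_comp k _ _
  have h3 : Algebra.IsAlgebraic K0 K := ht.isAlgebraic_field
  have h4 : Module.Finite K0 K := Algebra.finite_of_essFiniteType_of_isAlgebraic
  have hz0 : z ∈ K0 := subset_adjoin _ _ ⟨⟨z, hzt'⟩, rfl⟩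
  have hnp : ∀ y ∈ K0, y ^ p ≠ z := by
    intro y hy hyz
    obtain ⟨a, b, rfl⟩ := (mem_adjoin_range_iff k _ y).1 hy
    have hb : MvPolynomial.aeval ((↑) : t → K) b ≠ 0 := by
      intro h0
      rw [h0, div_zero, zero_pow hp.ne_zero] at hyz
      exact hzk (hyz ▸ k.zero_mem)
    have h5 : MvPolynomial.X ⟨z, hzt'⟩ * b ^ p = a ^ p := by
      apply (algebraicIndependent_iff_injective_aeval.1 ht.1)
      simp only [map_mul, map_pow, MvPolynomial.aeval_X]
      rw [← hyz, div_pow, div_mul_cancel₀ _ (pow_ne_zero _ hb)]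
    have h6 := congrArg (MvPolynomial.pderiv (⟨z, hzt'⟩ : t)) h5
    have hpz : ((p : ℕ) : MvPolynomial t k) = 0 := by
      have : ((p : ℕ) : k) = 0 := by apply Subtype.ext; simp
      rw [← map_natCast (MvPolynomial.C : k →+* MvPolynomial t k), this, map_zero]
    rw [Derivation.leibniz, Derivation.leibniz_pow, Derivation.leibniz_pow] at h6
    simp only [nsmul_eq_mul, hpz, zero_mul, zero_add, MvPolynomial.pderiv_X_self,
      smul_eq_mul, mul_one, mul_zero] at h6
    apply hb
    rw [pow_eq_zero_iff hp.ne_zero] at h6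
    rw [h6, map_zero]
  obtain ⟨w, hw⟩ := hz (Module.finrank K0 K)
  have hch : CharP K0 p := (algebraMap K0 K).charP (algebraMap K0 K).injective p
  have : ExpChar K0 p := ExpChar.prime hp
  have h7 : (minpoly K0 w).natSepDegree = 1 :=
    (minpoly.natSepDegree_eq_one_iff_pow_mem p).2 ⟨_, ⟨z, hz0⟩, hw.symm⟩
  obtain ⟨m, y, hy⟩ := (minpoly.natSepDegree_eq_one_iff_eq_X_pow_sub_C p).1 h7
  have h8 : w ^ p ^ m = y := by
    have := minpoly.aeval K0 w
    rw [hy] at this
    simpa [sub_eq_zero] using this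
  have h9 : p ^ m ≤ Module.finrank K0 K := by
    have := minpoly.natDegree_le (A := K0) w
    rwa [hy, natDegree_X_pow_sub_C] at this
  have h10 : m < Module.finrank K0 K := lt_of_lt_of_le (Nat.lt_pow_self hp.one_lt) h9
  obtain ⟨j, hj⟩ := Nat.exists_eq_add_of_lt h10
  apply hnp ((y : K) ^ p ^ j) (pow_mem y.2 _)
  rw [← hw, ← h8, hj, ← pow_mul, ← pow_mul]
  congr 1
  ring

lemma exists_root (k : Subfield K) [IsAlgClosed k] {z : K} (hz : z ∈ k) (n : ℕ) :
    ∃ w : K, w ^ p ^ n = z := by
  have hp : p.Prime := Fact.out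
  obtain ⟨b, hb⟩ := IsAlgClosed.exists_pow_nat_eq (⟨z, hz⟩ : k) (pow_pos hp.pos n)
  exact ⟨b, by simpa using congrArg (fun t : k => (t : K)) hb⟩

end Crest.Agent.R9
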