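import Crest.Agent.R9.Config

/-!
# From a collineation of `ℙ_{K^p}(K)` that is a group isomorphism to a field isomorphism
-/

set_option autoImplicit false
set_option linter.unusedSectionVars false

namespace Crest.Agent.R9

open Crest.NumberTheoryR.MilnorK

variable {K : Type*} [Field K] {p : ℕ} [Fact p.Prime] [CharP K p]
variable {L : Type*} [Field L] [CharP L p]

/-- `Ψ` maps the pairs `[u], [1 + u]` to such pairs -/
def Lin (Ψ : KOne K p ≃+ KOne L p) : Prop :=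
  ∀ u : K, u ∉ PP K p →
    ∃ u' : L, u' ≠ 0 ∧ 1 + u' ≠ 0 ∧ cl p u' = Ψ (cl p u) ∧ cl p (1 + u') = Ψ (cl p (1 + u))

variable (p) in
/-- `z` lies in the `K^p`-span of `u` and `v` -/
def InSp (u v z : K) : Prop := ∃ a ∈ PP K p, ∃ b ∈ PP K p, z = a * u + b * v

lemma rep_mul {y z : K} (hy : y ≠ 0) (hz : z ≠ 0) (h : cl p z = cl p y) :
    ∃ a ∈ PP K p, z = a * y :=
  ⟨z / y, (cl_eq_iff hz hy).1 h, by field_simp⟩

lemma line {Ψ : KOne K p ≃+ KOne L p} (hΨ : Lin Ψ) {u v z : K} {u' v' z' : L}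
    (hu0 : u ≠ 0) (hv0 : v ≠ 0) (hz0 : z ≠ 0) (hu0' : u' ≠ 0) (hv0' : v' ≠ 0) (hz0' : z' ≠ 0)
    (hu : cl p u' = Ψ (cl p u)) (hv : cl p v' = Ψ (cl p v)) (hz : cl p z' = Ψ (cl p z))
    (h : InSp p u v z) : InSp p u' v' z' := by
  obtain ⟨a, ha, b, hb, h⟩ := h
  by_cases hb0 : b = 0
  · rw [hb0, zero_mul, add_zero] at h
    have ha0 : a ≠ 0 := by rintro rfl; exact hz0 (by simpa using h)
    obtain ⟨m, hm, hm'⟩ := rep_mul hu0' hz0' (by rw [hz, hu, h, cl_PP_mul ha ha0 hu0])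
    exact ⟨m, hm, 0, zero_mem _, by rw [hm']; ring⟩
  obtain ⟨q, hq⟩ : ∃ q, a * u / (b * v) = q := ⟨_, rfl⟩
  have hzq : z = b * ((1 + q) * v) := by rw [h, ← hq]; field_simp; ring
  have hq1 : 1 + q ≠ 0 := by
    intro h0; apply hz0; rw [hzq, h0]; simp
  by_cases hqP : q ∈ PP K p
  · obtain ⟨m, hm, hm'⟩ := rep_mul hv0' hz0' (by
      rw [hz, hv, hzq, cl_PP_mul hb hb0 (mul_ne_zero hq1 hv0),
        cl_PP_mul (add_mem (one_mem _) hqP) hq1 hv0])
    exact ⟨0, zero_mem _, m, hm, by rw [hm']; ring⟩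
  have ha0 : a ≠ 0 := by
    rintro rfl
    apply hqP; rw [← hq]; simp
  obtain ⟨q', hq0', hq1', h1, h2⟩ := hΨ q hqP
  obtain ⟨l, hl, hl'⟩ := rep_mul (div_ne_zero hu0' hv0') hq0' (by
    rw [h1, cl_div hu0' hv0', hu, hv, ← map_sub, ← hq,
      cl_div (mul_ne_zero ha0 hu0) (mul_ne_zero hb0 hv0), cl_PP_mul ha ha0 hu0,
      cl_PP_mul hb hb0 hv0])
  obtain ⟨m, hm, hm'⟩ := rep_mul (mul_ne_zero hq1' hv0') hz0' (by
    rw [hz, cl_mul hq1' hv0', h2, hv, ← map_add, ← cl_mul hq1 hv0, hzq,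
      cl_PP_mul hb hb0 (mul_ne_zero hq1 hv0)])
  refine ⟨m * l, mul_mem hm hl, m, hm, ?_⟩
  rw [hm', hl']; field_simp; ring

variable (p) in
/-- `1, x, y` are independent over `K^p` -/
def Ind (x y : K) : Prop := x ∉ PP K p ∧ ¬ InSp p 1 x y

lemma inSp_of_mem {x a : K} (ha : a ∈ PP K p) : InSp p 1 x a :=
  ⟨a, ha, 0, zero_mem _, by ring⟩

lemma inSp_self (x : K) : InSp p 1 x x := ⟨0, zero_mem _, 1, one_mem _, by ring⟩

lemma InSp.add {u v y z : K} (hy : InSp p u v y) (hz : InSp p u v z) : InSp p u v (y + z) := by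
  obtain ⟨a, ha, b, hb, rfl⟩ := hy
  obtain ⟨c, hc, d, hd, rfl⟩ := hz
  exact ⟨a + c, add_mem ha hc, b + d, add_mem hb hd, by ring⟩

lemma InSp.mul {u v y c : K} (hy : InSp p u v y) (hc : c ∈ PP K p) : InSp p u v (c * y) := by
  obtain ⟨a, ha, b, hb, rfl⟩ := hy
  exact ⟨c * a, mul_mem hc ha, c * b, mul_mem hc hb, by ring⟩

lemma InSp.sub {u v y z : K} (hy : InSp p u v y) (hz : InSp p u v z) : InSp p u v (y - z) := by
  have := hy.add (hz.mul (neg_mem (one_mem _)))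
  rwa [neg_one_mul, ← sub_eq_add_neg] at this

lemma InSp.trans {x y z : K} (hy : InSp p 1 x y) (hz : InSp p 1 y z) : InSp p 1 x z := by
  obtain ⟨a, ha, b, hb, rfl⟩ := hz
  exact ((inSp_of_mem (one_mem _)).mul ha).add (hy.mul hb)

lemma Ind.not_mem {x y : K} (h : Ind p x y) : y ∉ PP K p := fun hy => h.2 (inSp_of_mem hy)

lemma Ind.coeff {x y a b c : K} (h : Ind p x y) (ha : a ∈ PP K p) (hb : b ∈ PP K p)
    (hc : c ∈ PP K p) (h0 : a + b * x + c * y = 0) : a = 0 ∧ b = 0 ∧ c = 0 := by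
  have hc0 : c = 0 := by
    by_contra hc0
    apply h.2
    refine ⟨-a / c, div_mem (neg_mem ha) hc, -b / c, div_mem (neg_mem hb) hc, ?_⟩
    field_simp
    linear_combination h0
  have hb0 : b = 0 := by
    by_contra hb0
    apply h.1
    have : x = -a / b := by
      field_simp
      linear_combination h0 - y * hc0
    rw [this]
    exact div_mem (neg_mem ha) hb
  refine ⟨?_, hb0, hc0⟩
  linear_combination h0 - y * hc0 - x * hb0

lemma exists_ind (hK : ∀ x : K, ∃ y, y ∉ Cen x) {x : K} (hx : x ∉ PP K p) : ∃ y, Ind p x y := by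
  obtain ⟨y, hy⟩ := hK x
  refine ⟨y, hx, ?_⟩
  rintro ⟨a, ha, b, hb, rfl⟩
  exact hy (add_mem (mul_mem (PP_le_Cen x ha) (one_mem _))
    (mul_mem (PP_le_Cen x hb) (self_mem_Cen x)))

lemma not_mem_map {Ψ : KOne K p ≃+ KOne L p} {x : K} {x' : L} (hx : x ∉ PP K p) (hx0 : x' ≠ 0)
    (h : cl p x' = Ψ (cl p x)) : x' ∉ PP L p := by
  rw [← cl_eq_zero_iff hx0, h, AddEquiv.map_eq_zero_iff]
  exact cl_ne_zero hx

lemma Ind.map {Ψ : KOne K p ≃+ KOne L p} (hΨ' : Lin Ψ.symm) {x y : K} {x' y' : L}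
    (h : Ind p x y) (hx0 : x' ≠ 0) (hy0 : y' ≠ 0) (hx : cl p x' = Ψ (cl p x))
    (hy : cl p y' = Ψ (cl p y)) : Ind p x' y' := by
  refine ⟨not_mem_map h.1 hx0 hx, fun hc => h.2 ?_⟩
  exact line hΨ' one_ne_zero hx0 hy0 one_ne_zero (ne_zero_of_not_mem h.1)
    (ne_zero_of_not_mem h.not_mem) (by rw [cl_one, cl_one, map_zero]) (by rw [hx]; simp)
    (by rw [hy]; simp) hc

open Classical in
/-- the field map on the complement of `K^p` -/
noncomputable def a0 {Ψ : KOne K p ≃+ KOne L p} (hΨ : Lin Ψ) (u : K) : L :=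
  if h : u ∈ PP K p then 0 else (hΨ u h).choose

section
variable {Ψ : KOne K p ≃+ KOne L p} (hΨ : Lin Ψ)

lemma a0_spec {u : K} (hu : u ∉ PP K p) : a0 hΨ u ≠ 0 ∧ 1 + a0 hΨ u ≠ 0 ∧
    cl p (a0 hΨ u) = Ψ (cl p u) ∧ cl p (1 + a0 hΨ u) = Ψ (cl p (1 + u)) := by
  rw [a0, dif_neg hu]
  exact (hΨ u hu).choose_spec

lemma a0_eq {u : K} (hu : u ∉ PP K p) {u' : L} (h0 : u' ≠ 0) (h1 : 1 + u' ≠ 0)
    (h2 : cl p u' = Ψ (cl p u)) (h3 : cl p (1 + u') = Ψ (cl p (1 + u))) : a0 hΨ u = u' := by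
  obtain ⟨k0, k1, k2, k3⟩ := a0_spec hΨ hu
  refine (rep_unique (e := 1) (e' := 1) one_ne_zero one_ne_zero (A := Ψ (cl p u))
    (B := Ψ (cl p (1 + u))) ?_ k0 k1 h0 h1 ?_ ?_ ?_ ?_).1
  · rw [Ne, AddEquiv.map_eq_zero_iff]; exact cl_ne_zero hu
  all_goals rwa [one_smul]

lemma cl_one_map : cl p (1 : L) = Ψ (cl p (1 : K)) := by rw [cl_one, cl_one, map_zero]

lemma a0_add_ind (hΨ' : Lin Ψ.symm) {x y : K} (h : Ind p x y) :
    a0 hΨ (x + y) = a0 hΨ x + a0 hΨ y := by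
  obtain ⟨x0, x1, x2, x3⟩ := a0_spec hΨ h.1
  obtain ⟨y0, y1, y2, y3⟩ := a0_spec hΨ h.not_mem
  generalize a0 hΨ x = x' at *
  generalize a0 hΨ y = y' at *
  have h' : Ind p x' y' := h.map hΨ' x0 y0 x2 y2
  have hx0 := ne_zero_of_not_mem h.1
  have hy0 := ne_zero_of_not_mem h.not_mem
  have hx1 := ne_zero_of_not_mem (one_add_not_mem h.1)
  have hy1 := ne_zero_of_not_mem (one_add_not_mem h.not_mem)
  have hxy : x + y ∉ PP K p := fun hc => h.2 (by
    have := (inSp_of_mem (x := x) hc).sub (inSp_self x)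
    rwa [add_sub_cancel_left] at this)
  have hxy0 := ne_zero_of_not_mem hxy
  have hxy1 := ne_zero_of_not_mem (one_add_not_mem hxy)
  have one := one_mem (PP K p)
  have n1 : 1 + (x' + y') ≠ 0 := by
    intro hc
    have := h'.coeff (one_mem _) (one_mem _) (one_mem _) (by linear_combination hc)
    exact one_ne_zero this.1
  have n2 : x' + y' ≠ 0 := by
    intro hc
    have := h'.coeff (zero_mem _) (one_mem _) (one_mem _) (by linear_combination hc)
    exact one_ne_zero this.2.1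
  have e1 : cl p (1 + (x' + y')) = Ψ (cl p (1 + (x + y))) := by
    obtain ⟨z, hz0, hz⟩ := cl_surj (Ψ (cl p (1 + (x + y))))
    obtain ⟨a, ha, b, hb, hab⟩ := line hΨ hx1 hy0 hxy1 x1 y0 hz0 x3 y2 hz
      ⟨1, one, 1, one, by ring⟩
    obtain ⟨c, hc, d, hd, hcd⟩ := line hΨ hx0 hy1 hxy1 x0 y1 hz0 x2 y3 hz
      ⟨1, one, 1, one, by ring⟩
    obtain ⟨k1, k2, k3⟩ := h'.coeff (sub_mem ha hd) (sub_mem ha hc) (sub_mem hb hd)
      (by linear_combination hcd - hab)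
    have hz' : z = a * (1 + (x' + y')) := by
      linear_combination hab + y' * k3 - y' * k1
    have ha0 : a ≠ 0 := by rintro rfl; exact hz0 (by simpa using hz')
    rw [← hz, hz', cl_PP_mul ha ha0 n1]
  have e2 : cl p (x' + y') = Ψ (cl p (x + y)) := by
    obtain ⟨z, hz0, hz⟩ := cl_surj (Ψ (cl p (x + y)))
    obtain ⟨a, ha, b, hb, hab⟩ := line hΨ hx0 hy0 hxy0 x0 y0 hz0 x2 y2 hz
      ⟨1, one, 1, one, by ring⟩
    obtain ⟨c, hc, d, hd, hcd⟩ := line hΨ one_ne_zero hxy1 hxy0 one_ne_zero n1 hz0 cl_one_map e1 hz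
      ⟨-1, neg_mem one, 1, one, by ring⟩
    obtain ⟨k1, k2, k3⟩ := h'.coeff (add_mem hc hd) (sub_mem hd ha) (sub_mem hd hb)
      (by linear_combination hab - hcd)
    have hz' : z = a * (x' + y') := by
      linear_combination hab + y' * k2 - y' * k3
    have ha0 : a ≠ 0 := by rintro rfl; exact hz0 (by simpa using hz')
    rw [← hz, hz', cl_PP_mul ha ha0 n2]
  exact a0_eq hΨ hxy n2 n1 e2 e1

lemma a0_mul_ind (hΨ' : Lin Ψ.symm) {x y : K} (h : Ind p x (x * y)) :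
    a0 hΨ (-(x * y)) = -(a0 hΨ x * a0 hΨ y) := by
  have hy : y ∉ PP K p := fun hc => h.2 (by
    rw [mul_comm]; exact (inSp_self x).mul hc)
  obtain ⟨x0, x1, x2, x3⟩ := a0_spec hΨ h.1
  obtain ⟨y0, y1, y2, y3⟩ := a0_spec hΨ hy
  generalize a0 hΨ x = x' at *
  generalize a0 hΨ y = y' at *
  have hx0 := ne_zero_of_not_mem h.1
  have hy0 := ne_zero_of_not_mem hy
  have hx1 := ne_zero_of_not_mem (one_add_not_mem h.1)
  have hy1 := ne_zero_of_not_mem (one_add_not_mem hy)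
  have xy2 : cl p (x' * y') = Ψ (cl p (x * y)) := by
    rw [cl_mul x0 y0, cl_mul hx0 hy0, map_add, x2, y2]
  have h' : Ind p x' (x' * y') := h.map hΨ' x0 (mul_ne_zero x0 y0) x2 xy2
  have hxy : -(x * y) ∉ PP K p := fun hc => h.not_mem (by simpa using neg_mem hc)
  have hxy1 := ne_zero_of_not_mem (one_add_not_mem hxy)
  have one := one_mem (PP K p)
  have n1 : 1 + -(x' * y') ≠ 0 := by
    intro hc
    have := h'.coeff (one_mem _) (zero_mem _) (neg_mem (one_mem _)) (by linear_combination hc)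
    exact one_ne_zero this.1
  have e1 : cl p (1 + -(x' * y')) = Ψ (cl p (1 + -(x * y))) := by
    obtain ⟨z, hz0, hz⟩ := cl_surj (Ψ (cl p (1 + -(x * y))))
    obtain ⟨a, ha, b, hb, hab⟩ := line hΨ one_ne_zero (mul_ne_zero hx0 hy0) hxy1 one_ne_zero
      (mul_ne_zero x0 y0) hz0 cl_one_map xy2 hz ⟨1, one, -1, neg_mem one, by ring⟩
    obtain ⟨c, hc, d, hd, hcd⟩ := line hΨ (mul_ne_zero hx0 hy1) hx1 hxy1 (mul_ne_zero x0 y1) x1 hz0
      (by rw [cl_mul x0 y1, cl_mul hx0 hy1, map_add, x2, y3]) x3 hz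
      ⟨-1, neg_mem one, 1, one, by ring⟩
    obtain ⟨k1, k2, k3⟩ := h'.coeff (sub_mem hd ha) (add_mem hc hd) (sub_mem hc hb)
      (by linear_combination hab - hcd)
    have hz' : z = a * (1 + -(x' * y')) := by
      linear_combination hab + x' * y' * (k2 - k1 - k3)
    have ha0 : a ≠ 0 := by rintro rfl; exact hz0 (by simpa using hz')
    rw [← hz, hz', cl_PP_mul ha ha0 n1]
  exact a0_eq hΨ hxy (neg_ne_zero.2 (mul_ne_zero x0 y0)) n1
    (by rw [cl_neg (mul_ne_zero x0 y0), cl_neg (mul_ne_zero hx0 hy0), xy2]) e1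

variable (hΨ' : Lin Ψ.symm) (hK : ∀ x : K, ∃ y, y ∉ Cen x)
include hΨ' hK

lemma a0_add {x y : K} (hx : x ∉ PP K p) (hy : y ∉ PP K p) (hxy : x + y ∉ PP K p) :
    a0 hΨ (x + y) = a0 hΨ x + a0 hΨ y := by
  by_cases h : InSp p 1 x y
  · obtain ⟨w, hw⟩ := exists_ind hK hx
    have h1 := a0_add_ind hΨ hΨ' (x := x + y) (y := w)
      ⟨hxy, fun hc => hw.2 (((inSp_self x).add h).trans hc)⟩
    have h2 := a0_add_ind hΨ hΨ' (x := x) (y := y + w)
      ⟨hx, fun hc => hw.2 (by simpa using hc.sub h)⟩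
    have h3 := a0_add_ind hΨ hΨ' (x := y) (y := w) ⟨hy, fun hc => hw.2 (h.trans hc)⟩
    rw [add_assoc, h2, h3] at h1
    linear_combination -h1
  · exact a0_add_ind hΨ hΨ' ⟨hx, h⟩

lemma a0_neg {x : K} (hx : x ∉ PP K p) : a0 hΨ (-x) = -a0 hΨ x := by
  obtain ⟨w, hw⟩ := exists_ind hK hx
  have h1 := a0_add_ind hΨ hΨ' hw
  have h2 := a0_add hΨ hΨ' hK (x := x + w) (y := -x)
    (fun hc => hw.2 (by simpa using (inSp_of_mem (x := x) hc).sub (inSp_self x)))
    (fun hc => hx (by simpa using neg_mem hc)) (by simpa using hw.not_mem)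
  rw [h1, show x + w + -x = w by ring] at h2
  linear_combination -h2

lemma a0_shift {x y a : K} (hx : x ∉ PP K p) (hy : y ∉ PP K p) (ha : a ∈ PP K p) :
    a0 hΨ (x + a) - a0 hΨ x = a0 hΨ (y + a) - a0 hΨ y := by
  have sh : ∀ z : K, z ∉ PP K p → z + a ∉ PP K p := fun z hz hc =>
    hz (by simpa using sub_mem hc ha)
  have key : ∀ x y : K, x ∉ PP K p → y ∉ PP K p → x + y ∉ PP K p →
      a0 hΨ (x + a) - a0 hΨ x = a0 hΨ (y + a) - a0 hΨ y := by
    intro x y hx hy hxy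
    have h1 := a0_add hΨ hΨ' hK (sh x hx) hy (by
      rw [add_right_comm]; exact sh _ hxy)
    have h2 := a0_add hΨ hΨ' hK hx (sh y hy) (by
      rw [← add_assoc]; exact sh _ hxy)
    rw [add_right_comm, add_assoc, h2] at h1
    linear_combination -h1
  by_cases hxy : x + y ∈ PP K p
  · obtain ⟨w, hw⟩ := exists_ind hK hx
    rw [key x w hx hw.not_mem
      (fun hc => hw.2 (by simpa using (inSp_of_mem (x := x) hc).sub (inSp_self x))),
      key w y hw.not_mem hy (fun hc => hw.2 (by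
        have := ((inSp_of_mem (x := x) hc).sub (inSp_of_mem hxy)).add (inSp_self x)
        rwa [show w + y - (x + y) + x = w by ring] at this))]
  · exact key x y hx hy hxy

include hΨ in
theorem exists_ringEquiv : ∃ α : K ≃+* L, ∀ u : K, cl p (α u) = Ψ (cl p u) := by
  classical
  have hp : p.Prime := Fact.out
  obtain ⟨x0, hx0⟩ : ∃ x0 : K, x0 ∉ PP K p := by
    obtain ⟨y, hy⟩ := hK 0
    exact ⟨y, fun h => hy (PP_le_Cen 0 h)⟩
  let f : K → L := fun z => if z ∈ PP K p then a0 hΨ (x0 + z) - a0 hΨ x0 else a0 hΨ z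
  have f1 : ∀ z, z ∉ PP K p → f z = a0 hΨ z := fun z hz => if_neg hz
  have f2 : ∀ x a, x ∉ PP K p → a ∈ PP K p → f a = a0 hΨ (x + a) - a0 hΨ x := fun x a hx ha => by
    rw [a0_shift hΨ hΨ' hK hx hx0 ha]; exact if_pos ha
  have sh : ∀ z a : K, z ∉ PP K p → a ∈ PP K p → z + a ∉ PP K p := fun z a hz ha hc =>
    hz (by simpa using sub_mem hc ha)
  have fadd : ∀ x y, f (x + y) = f x + f y := by
    intro x y
    by_cases hx : x ∈ PP K p <;> by_cases hy : y ∈ PP K p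
    · rw [f2 x0 _ hx0 (add_mem hx hy), f2 x0 x hx0 hx, f2 (x0 + x) y (sh _ _ hx0 hx) hy,
        add_assoc]
      ring
    · rw [add_comm x y, f1 _ (sh _ _ hy hx), f1 y hy, f2 y x hy hx]; ring
    · rw [f1 _ (sh _ _ hx hy), f1 x hx, f2 x y hx hy]; ring
    · by_cases hxy : x + y ∈ PP K p
      · rw [f2 (-y) _ (fun hc => hy (by simpa using neg_mem hc)) hxy, f1 x hx, f1 y hy,
          a0_neg hΨ hΨ' hK hy, show -y + (x + y) = x by ring]
        ring
      · rw [f1 _ hxy, f1 x hx, f1 y hy, a0_add hΨ hΨ' hK hx hy hxy]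
  let g : K →+ L := AddMonoidHom.mk' f fadd
  have g1 : ∀ z, z ∉ PP K p → g z = a0 hΨ z := f1
  have m1 : ∀ x y, Ind p x (x * y) → g (x * y) = g x * g y := by
    intro x y h
    have hy : y ∉ PP K p := fun hc => h.2 (by
      rw [mul_comm]; exact (inSp_self x).mul hc)
    have := a0_mul_ind hΨ hΨ' h
    rw [a0_neg hΨ hΨ' hK h.not_mem, neg_inj] at this
    rw [g1 _ h.not_mem, g1 _ h.1, g1 _ hy, this]
  have m2 : ∀ x y, x ∉ PP K p → g (x * y) = g x * g y := by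
    intro x y hx
    by_cases h : InSp p 1 x (x * y)
    · obtain ⟨w, hw⟩ := exists_ind hK hx
      have hx0 := ne_zero_of_not_mem hx
      have hw' : x * (w / x) = w := by field_simp
      have h1 := m1 x (w / x) (by rwa [hw'])
      have h2 := m1 x (y + w / x) ⟨hx, fun hc => hw.2 (by
        have := hc.sub h
        rwa [mul_add, hw', add_sub_cancel_left] at this)⟩
      rw [mul_add, map_add, map_add, h1] at h2
      linear_combination h2
    · exact m1 x y ⟨hx, h⟩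
  have m3 : ∀ x y, g (x * y) = g x * g y := by
    intro x y
    by_cases hx : x ∈ PP K p
    · have h1 := m2 (x0 + x) y (sh _ _ hx0 hx)
      rw [add_mul, map_add, map_add, m2 x0 y hx0] at h1
      linear_combination h1
    · exact m2 x y hx
  have gx0 : g x0 ≠ 0 := by rw [g1 _ hx0]; exact (a0_spec hΨ hx0).1
  have m4 : g 1 = 1 := by
    have := m3 x0 1
    rw [mul_one] at this
    exact (mul_right_eq_self₀.1 this.symm).resolve_right gx0
  let φ : K →+* L := { g with map_one' := m4, map_mul' := m3 }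
  have φ1 : ∀ z, z ∉ PP K p → φ z = a0 hΨ z := g1
  have s1 : ∀ u' : L, u' ∉ PP L p → ∃ u, φ u = u' := by
    intro u' hu'
    obtain ⟨u, hu0, hu1, h1, h2⟩ := hΨ' u' hu'
    have hu : u ∉ PP K p := not_mem_map hu' hu0 h1
    refine ⟨u, ?_⟩
    rw [φ1 u hu]
    exact a0_eq hΨ hu (ne_zero_of_not_mem hu') (ne_zero_of_not_mem (one_add_not_mem hu'))
      (by rw [h1]; simp) (by rw [h2]; simp)
  have hsurj : Function.Surjective φ := by
    intro u'
    by_cases hu' : u' ∈ PP L p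
    · have h0 : φ x0 ∉ PP L p := by
        rw [φ1 _ hx0]
        exact not_mem_map hx0 (a0_spec hΨ hx0).1 (a0_spec hΨ hx0).2.2.1
      obtain ⟨u, hu⟩ := s1 (φ x0 + u') (fun hc => h0 (by simpa using sub_mem hc hu'))
      exact ⟨u - x0, by rw [map_sub, hu]; ring⟩
    · exact s1 u' hu'
  refine ⟨RingEquiv.ofBijective φ ⟨φ.injective, hsurj⟩, fun u => ?_⟩
  rw [RingEquiv.ofBijective_apply]
  by_cases hu0 : u = 0
  · simp [hu0, cl]
  by_cases hu : u ∈ PP K p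
  · rw [(cl_eq_zero_iff hu0).2 hu, map_zero, cl_eq_zero_iff ((map_ne_zero φ).2 hu0)]
    obtain ⟨v, rfl⟩ := mem_PP.1 hu
    rw [map_pow]; exact pow_mem_PP _
  · rw [φ1 u hu]; exact (a0_spec hΨ hu).2.2.1

end

end Crest.Agent.R9
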